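import Vale.Agent.P224.R2.H820.Geo
import Vale.Agent.P224.UE.LawM
import Vale.Agent.P224.TP.Top
import Vale.Agent.P224.Bdl.B5
import Vale.Agent.P224.UG.Ratio

/-!
Final assembly in even dimension: the near law and the far law give the sharp volume bound.
-/

namespace Vale.Agent.P224.R2.H60

open MeasureTheory Set Filter Function Module Vale.Agent.P224 Vale.Agent.P224.UE
  Vale.Agent.P224.R2.H820
open Vale.Agent.P224.SM2 hiding ker
open scoped Topology RealInnerProductSpace ENNReal ContDiff Manifold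

set_option linter.unusedSectionVars false

section

variable {V W M : Type*} [NormedAddCommGroup V] [InnerProductSpace ℝ V] [FiniteDimensional ℝ V]
  [NormedAddCommGroup W] [InnerProductSpace ℝ W] [FiniteDimensional ℝ W]
  [TopologicalSpace M] [ChartedSpace V M]
  [MeasurableSpace V] [BorelSpace V] [MeasurableSpace M] [BorelSpace M]
  [IsManifold 𝓘(ℝ, V) ∞ M] [CompactSpace M] [T2Space M] [ConnectedSpace M]
  [MeasurableSpace W] [BorelSpace W]

/-- the near law: the defect absorbs the mean normal term -/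
def NearAt (V : Type*) {W M : Type*} [NormedAddCommGroup V] [InnerProductSpace ℝ V]
    [FiniteDimensional ℝ V] [MeasurableSpace V] [BorelSpace V] [NormedAddCommGroup W]
    [InnerProductSpace ℝ W] [TopologicalSpace M] [ChartedSpace V M] [MeasurableSpace M]
    (F N : M → W) : Prop :=
  ∃ B : ℝ → ℝ, IntervalIntegrable B volume 0 1 ∧
    (∀ T ∈ Ioo (0 : ℝ) 1, B T ≤ DM V F N T) ∧
    finrank ℝ V * rM (finrank ℝ V) 0 * ‖∫ x, N x ∂(volM V F)‖ ^ 2 ≤ ∫ T in (0 : ℝ)..1, B T

lemma evenRatio_le_two {k : ℕ} (hk : 2 ≤ k) : evenRatio k ≤ 2 := by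
  refine (UG.evenRatio_le (by omega)).trans ?_
  have hk' : (2 : ℝ) ≤ k := by exact_mod_cast hk
  have h1 : 1 / (8 * (k : ℝ)) ≤ 1 / 16 := by
    apply one_div_le_one_div_of_le (by norm_num)
    linarith
  have h2 : Real.exp (1 / (8 * (k : ℝ))) ≤ 1.07 := by
    refine (Real.exp_le_exp.2 h1).trans ?_
    have h3 := Real.exp_bound' (x := 1 / 16) (by norm_num) (by norm_num) (n := 3) (by norm_num)
    refine h3.trans ?_
    norm_num [Finset.sum_range_succ, Nat.factorial]
  have h3 : Real.sqrt 2 ≤ 1.4143 := by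
    rw [Real.sqrt_le_left (by norm_num)]
    norm_num
  calc Real.sqrt 2 * Real.exp (1 / (8 * (k : ℝ))) ≤ 1.4143 * 1.07 :=
        mul_le_mul h3 h2 (Real.exp_pos _).le (by norm_num)
    _ ≤ 2 := by norm_num

/-- **Final assembly, even dimension.** -/
theorem even_final {k : ℕ} (hk : 2 ≤ k) (hV : finrank ℝ V = 2 * k)
    (hW : finrank ℝ W = finrank ℝ V + 2)
    {F : M → W} (hF : SphImm V F) (hmin : ∀ x n, IsUnitNormal V F x n → meanCurv V F x n = 0)
    (hng : ¬ ∃ a : W, a ≠ 0 ∧ ∀ x, ⟪F x, a⟫ = 0)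
    (hcase : ∀ N : M → W, ContMDiff 𝓘(ℝ, V) 𝓘(ℝ, W) ∞ N → (∀ x, IsUnitNormal V F x (N x)) →
      Injective F → ‖∫ x, N x ∂(volM V F)‖ ≤ sphereVol (finrank ℝ V) →
      (volM V F).real univ < evenRatio k * sphereVol (finrank ℝ V) →
      6 / 5 * sphereVol (finrank ℝ V) ≤ (volM V F).real univ → NearAt V F N) :
    ENNReal.ofReal (leastClifford (finrank ℝ V)) ≤ volM V F univ := by
  have hm : 0 < finrank ℝ V := by omega
  have hfin : IsFiniteMeasure (volM V F) := isFiniteMeasure_volM hF
  set A := (volM V F).real univ with hA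
  set S := sphereVol (finrank ℝ V) with hS
  have hS0 : 0 < S := sphereVol_pos' _
  have hle : leastClifford (finrank ℝ V) ≤ evenRatio k * S := by
    rw [hS, hV]
    exact even_bound (by omega) le_rfl
  have hconv : ∀ c : ℝ, c ≤ A → ENNReal.ofReal c ≤ volM V F univ := fun c hc =>
    ENNReal.ofReal_le_of_le_toReal hc
  refine hconv _ ?_
  by_cases hinj : Injective F
  swap
  · have h2 := TwoSide.two_le (by omega) hW hF hmin hinj
    have h3 : evenRatio k * S ≤ 2 * S := mul_le_mul_of_nonneg_right (evenRatio_le_two hk) hS0.le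
    linarith
  by_contra hlt
  rw [not_le] at hlt
  have h65 : 6 / 5 * S ≤ A := by
    have h1 := (PM.main_frac (by omega) hW hF hmin hng).1
    have h2 := ENNReal.toReal_mono (measure_ne_top _ _) h1
    rwa [ENNReal.toReal_ofReal (by positivity)] at h2
  have hA0 : 0 < A := by linarith
  obtain ⟨N, hNs, hN, htop⟩ := TP.exists_normal_le hW hm hF hinj
  obtain ⟨B, hBi, hB, hBu⟩ := hcase N hNs hN hinj htop (by linarith) h65
  have hlaw := sharp_defect (by omega) hW hF hmin hNs hN hinj hBi hB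
  rw [← hA, ← hS] at hlaw
  have h2l : 2 * lamM (finrank ℝ V) = evenRatio k := by
    rw [hV]
    exact two_lamM hk
  rw [h2l] at hlaw
  have hfin2 : evenRatio k * S * A ≤ A * A := by nlinarith
  have := le_of_mul_le_mul_right hfin2 hA0
  linarith

end

end Vale.Agent.P224.R2.H60
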