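import Vale.Agent.P224.R2.H60.EvenFA

/-!
Final assembly in even dimension, integrated form: the law in the normalised form
`2 lam S / A + X ≤ 1 + G` and the near law `G ≤ X` give the sharp volume bound.
-/

namespace Vale.Agent.P224.R2.H60

open MeasureTheory Set Filter Function Module Vale.Agent.P224 Vale.Agent.P224.UE
  Vale.Agent.P224.R2.H820
open Vale.Agent.P224.SM2 hiding ker
open scoped Topology RealInnerProductSpace ENNReal ContDiff Manifold

set_option linter.unusedSectionVars false

section

variable {V W M : Type*} [NormedAddCommGroup V] [InnerProductSpace ℝ V] [FiniteDimensional ℝ V]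
  [NormedAddCommGroup W] [InnerProductSpace ℝ W] [FiniteDimensional ℝ W]
  [TopologicalSpace M] [ChartedSpace V M]
  [MeasurableSpace V] [BorelSpace V] [MeasurableSpace M] [BorelSpace M]
  [IsManifold 𝓘(ℝ, V) ∞ M] [CompactSpace M] [T2Space M] [ConnectedSpace M]
  [MeasurableSpace W] [BorelSpace W]

/-- **Final assembly, even dimension, integrated form.** `X` is the lower bound of the defect of
the law and `G` the mean normal term. -/
theorem even_final_int {k : ℕ} (hk : 2 ≤ k) (hV : finrank ℝ V = 2 * k)
    (hW : finrank ℝ W = finrank ℝ V + 2)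
    {F : M → W} (hF : SphImm V F) (hmin : ∀ x n, IsUnitNormal V F x n → meanCurv V F x n = 0)
    (hng : ¬ ∃ a : W, a ≠ 0 ∧ ∀ x, ⟪F x, a⟫ = 0)
    (hcase : ∀ N : M → W, ContMDiff 𝓘(ℝ, V) 𝓘(ℝ, W) ∞ N → (∀ x, IsUnitNormal V F x (N x)) →
      Injective F → ‖∫ x, N x ∂(volM V F)‖ ≤ sphereVol (finrank ℝ V) →
      (volM V F).real univ < evenRatio k * sphereVol (finrank ℝ V) →
      6 / 5 * sphereVol (finrank ℝ V) ≤ (volM V F).real univ →
      ∃ X G : ℝ, 2 * lamM (finrank ℝ V) * (sphereVol (finrank ℝ V) / (volM V F).real univ) + X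
        ≤ 1 + G ∧ G ≤ X) :
    ENNReal.ofReal (leastClifford (finrank ℝ V)) ≤ volM V F univ := by
  have hm : 0 < finrank ℝ V := by omega
  have hfin : IsFiniteMeasure (volM V F) := isFiniteMeasure_volM hF
  set A := (volM V F).real univ with hA
  set S := sphereVol (finrank ℝ V) with hS
  have hS0 : 0 < S := sphereVol_pos' _
  have hle : leastClifford (finrank ℝ V) ≤ evenRatio k * S := by
    rw [hS, hV]
    exact even_bound (by omega) le_rfl
  have hconv : ∀ c : ℝ, c ≤ A → ENNReal.ofReal c ≤ volM V F univ := fun c hc =>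
    ENNReal.ofReal_le_of_le_toReal hc
  refine hconv _ ?_
  by_cases hinj : Injective F
  swap
  · have h2 := TwoSide.two_le (by omega) hW hF hmin hinj
    have h3 : evenRatio k * S ≤ 2 * S := mul_le_mul_of_nonneg_right (evenRatio_le_two hk) hS0.le
    linarith
  by_contra hlt
  rw [not_le] at hlt
  have h65 : 6 / 5 * S ≤ A := by
    have h1 := (PM.main_frac (by omega) hW hF hmin hng).1
    have h2 := ENNReal.toReal_mono (measure_ne_top _ _) h1
    rwa [ENNReal.toReal_ofReal (by positivity)] at h2
  have hA0 : 0 < A := by linarith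
  obtain ⟨N, hNs, hN, htop⟩ := TP.exists_normal_le hW hm hF hinj
  obtain ⟨X, G, h1, h2⟩ := hcase N hNs hN hinj htop (by linarith) h65
  have h2l : 2 * lamM (finrank ℝ V) = evenRatio k := by
    rw [hV]
    exact two_lamM hk
  rw [h2l] at h1
  have h3 : evenRatio k * (S / A) ≤ 1 := by linarith
  rw [← mul_div_assoc, div_le_one hA0] at h3
  linarith

end

end Vale.Agent.P224.R2.H60
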