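import Vale.Agent.P224.R2.H191.Cm
import Vale.Agent.P224.UG.Ratio

/-!
Levels: rational upper bounds of `leastClifford m / sphereVol m` valid for all `m ≥ n`.
-/

namespace Vale.Agent.P224.R2.H60

open Vale.Agent.P224 Vale.Agent.P224.H191

/-- level 80 -/
theorem lev80 {m : ℕ} (hm : 80 ≤ m) : leastClifford m ≤ 1.41865 * sphereVol m := by
  refine leastClifford_level (k0 := 40) (by norm_num) ?_ ?_ ?_ hm
  · rw [show (40 : ℕ) = 2 * 20 by norm_num, evenRatio_even]
    norm_num [Finset.prod_range_succ]
  · rw [show (40 + 1 : ℕ) = 41 by norm_num]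
    rw [show (41 : ℕ) = 2 * 20 + 1 by norm_num, evenRatio_odd]
    have := Real.pi_lt_d6
    norm_num [Finset.prod_range_succ]
    linarith
  · refine le_of_pow_le_pow_left₀ (n := 4) (by norm_num) (by norm_num) ?_
    rw [oddRatio_pow_four]
    norm_num

theorem lev110 {m : ℕ} (hm : 110 ≤ m) : leastClifford m ≤ 1.41747 * sphereVol m :=
  UG.leastClifford_le_num (by omega) 110 (by norm_num) hm (E := 1.0023) (by norm_num)
    (by norm_num) (by norm_num)

theorem lev150 {m : ℕ} (hm : 150 ≤ m) : leastClifford m ≤ 1.41659 * sphereVol m :=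
  UG.leastClifford_le_num (by omega) 150 (by norm_num) hm (E := 1.0016796) (by norm_num)
    (by norm_num) (by norm_num)

theorem lev216 {m : ℕ} (hm : 216 ≤ m) : leastClifford m ≤ 1.41586 * sphereVol m :=
  UG.leastClifford_le_num (by omega) 216 (by norm_num) hm (E := 1.0011637) (by norm_num)
    (by norm_num) (by norm_num)

theorem lev320 {m : ℕ} (hm : 320 ≤ m) : leastClifford m ≤ 1.41533 * sphereVol m :=
  UG.leastClifford_le_num (by omega) 320 (by norm_num) hm (E := 1.0007842) (by norm_num)
    (by norm_num) (by norm_num)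

theorem lev500 {m : ℕ} (hm : 500 ≤ m) : leastClifford m ≤ 1.41493 * sphereVol m :=
  UG.leastClifford_le_num (by omega) 500 (by norm_num) hm (E := 1.0005013) (by norm_num)
    (by norm_num) (by norm_num)

theorem lev800 {m : ℕ} (hm : 800 ≤ m) : leastClifford m ≤ 1.41466 * sphereVol m :=
  UG.leastClifford_le_num (by omega) 800 (by norm_num) hm (E := 1.000313) (by norm_num)
    (by norm_num) (by norm_num)

theorem lev1300 {m : ℕ} (hm : 1300 ≤ m) : leastClifford m ≤ 1.41449 * sphereVol m :=
  UG.leastClifford_le_num (by omega) 1300 (by norm_num) hm (E := 1.0001925) (by norm_num)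
    (by norm_num) (by norm_num)

theorem lev2000 {m : ℕ} (hm : 2000 ≤ m) : leastClifford m ≤ 1.414392 * sphereVol m :=
  UG.leastClifford_le_num (by omega) 2000 (by norm_num) hm (E := 1.0001251) (by norm_num)
    (by norm_num) (by norm_num)

theorem lev3500 {m : ℕ} (hm : 3500 ≤ m) : leastClifford m ≤ 1.414316 * sphereVol m :=
  UG.leastClifford_le_num (by omega) 3500 (by norm_num) hm (E := 1.0000715) (by norm_num)
    (by norm_num) (by norm_num)

theorem lev5000 {m : ℕ} (hm : 5000 ≤ m) : leastClifford m ≤ 1.414286 * sphereVol m :=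
  UG.leastClifford_le_num (by omega) 5000 (by norm_num) hm (E := 1.0000501) (by norm_num)
    (by norm_num) (by norm_num)

end Vale.Agent.P224.R2.H60
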